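import Vale.Agent.H24.GSH.Defs

namespace Vale.Agent.H24.GSH.N
open Vale.Agent.H24.GSH

/-- the statement of the criterion (row C) -/
def Criterion : Prop := ∀ {α Q : Type} [Fintype α] [DecidableEq α] [Fintype Q] [LinearOrder Q]
    (δ : Option Q → α → Option Q), Mono (fun q a => δ (some q) a) → ∀ i j : Option Q,
    H 1 {w : List α | w.foldl δ i = j}

/-- ROW N (permutation groups generated by letters that are order preserving off the base point) -/
theorem perm_result_of (hC : Criterion) {n : ℕ} {α : Type} [Fintype α] [DecidableEq α]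
    (φ : α → Equiv.Perm (Option (Fin n)))
    (hφ : ∀ a (p q p' q' : Fin n), p < q → φ a (some p) = some p' → φ a (some q) = some q' →
      p' < q') (T : Set (Equiv.Perm (Option (Fin n)))) :
    H 1 {w : List α | (w.map φ).prod ∈ T} := by
  -- machine: delta x a = (φ a)⁻¹ x
  have hfold : ∀ (w : List α) (x : Option (Fin n)),
      w.foldl (fun x a => (φ a)⁻¹ x) x = ((w.map φ).prod)⁻¹ x := by
    intro w
    induction w with
    | nil => intro x; simp
    | cons a w ih =>
      intro x
      rw [List.foldl_cons, ih, List.map_cons, List.prod_cons, mul_inv_rev, Equiv.Perm.mul_apply]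
  have hmono : Mono (fun (q : Fin n) (a : α) => (φ a)⁻¹ (some q)) := by
    intro a p q p' q' hpq h1 h2
    have e1 : φ a (some p') = some p := by rw [← h1]; simp
    have e2 : φ a (some q') = some q := by rw [← h2]; simp
    rcases lt_trichotomy p' q' with h | h | h
    · exact h
    · exfalso
      rw [h, e2] at e1
      have : q = p := Option.some.inj e1
      exact absurd hpq (by rw [this]; exact lt_irrefl _)
    · exfalso
      have := hφ a q' p' q p h e2 e1
      exact absurd hpq (not_lt.2 this.le)
  have hE : ∀ (g : Equiv.Perm (Option (Fin n))), H 1 {w : List α | (w.map φ).prod = g} := by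
    intro g
    have h1 : H 1 (⋂ x : Option (Fin n), {w : List α | w.foldl (fun x a => (φ a)⁻¹ x) x = g⁻¹ x}) :=
      H_iInter _ (fun x => hC (fun x a => (φ a)⁻¹ x) hmono x (g⁻¹ x))
    have e : {w : List α | (w.map φ).prod = g} =
        ⋂ x : Option (Fin n), {w : List α | w.foldl (fun x a => (φ a)⁻¹ x) x = g⁻¹ x} := by
      ext w
      simp only [Set.mem_setOf_eq, Set.mem_iInter, hfold]
      constructor
      · rintro rfl x; rfl
      · intro h
        have : ((w.map φ).prod)⁻¹ = g⁻¹ := Equiv.ext h
        exact inv_injective this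
    rw [e]; exact h1
  have h2 := H_iUnion_prop (fun g => g ∈ T) (fun g => {w : List α | (w.map φ).prod = g})
    (fun g _ => hE g)
  have e2 : {w : List α | (w.map φ).prod ∈ T} =
      {w : List α | ∃ g, g ∈ T ∧ w ∈ {w : List α | (w.map φ).prod = g}} := by
    ext w
    simp
  rw [e2]; exact h2

/-- ROW N2: all of `S_{n+1}`, letters = all transpositions of the base point -/
theorem star_transpositions_of (hC : Criterion) {n : ℕ} (T : Set (Equiv.Perm (Option (Fin n)))) :
    H 1 {w : List (Fin n) | (w.map fun i => Equiv.swap none (some i)).prod ∈ T} := by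
  apply perm_result_of hC (fun i : Fin n => Equiv.swap none (some i))
  intro a p q p' q' hpq h1 h2
  by_cases hp : p = a
  · rw [hp, Equiv.swap_apply_right] at h1
    exact absurd h1 (by simp)
  · by_cases hq : q = a
    · rw [hq, Equiv.swap_apply_right] at h2
      exact absurd h2 (by simp)
    · rw [Equiv.swap_apply_of_ne_of_ne (by simp) (by simpa using hp)] at h1
      rw [Equiv.swap_apply_of_ne_of_ne (by simp) (by simpa using hq)] at h2
      rw [← Option.some.inj h1, ← Option.some.inj h2]
      exact hpq

end Vale.Agent.H24.GSH.N
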